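import Vale.Agent.P207.H80.Orb
import Vale.Agent.P207.H376.TY

/-!
# P207, b < 2a, step 8: the action of two linear groups on the four forms
-/

open MvPolynomial Set Filter Topology Metric
open scoped ContDiff

noncomputable section

namespace Vale.Agent.P207.N4.H391.Q

open Vale.Agent.P207.H80.Orb

section Pol

variable {F G : Type} [NormedAddCommGroup F] [NormedSpace ℝ F] [NormedAddCommGroup G]
  [NormedSpace ℝ G]

theorem Pol.prod {ι : Type} (s : Finset ι) {f : ι → F → ℝ} (hf : ∀ i ∈ s, f i ∈ Pol F) :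
    (fun x => ∏ i ∈ s, f i x) ∈ Pol F := by
  have h := (Pol F).prod_mem hf
  have h2 : (∏ i ∈ s, f i) = fun x => ∏ i ∈ s, f i x := by
    funext x
    simp
  rwa [h2] at h

/-- a multilinear map of linear maps is polynomial -/
theorem Pol.multi [FiniteDimensional ℝ G] {n : ℕ} (f : ContinuousMultilinearMap ℝ
    (fun _ : Fin n => G) ℝ) (T : Fin n → F →L[ℝ] G) : (fun p => f fun i => T i p) ∈ Pol F := by
  classical
  set b := Module.finBasis ℝ G with hb
  have h1 : ∀ p, f (fun i => T i p) = ∑ r : Fin n → Fin (Module.finrank ℝ G),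
      (∏ i, b.repr (T i p) (r i)) * f fun i => b (r i) := by
    intro p
    have e1 : (fun i => T i p) = fun i => ∑ j, b.repr (T i p) j • b j := by
      funext i
      exact (b.sum_repr (T i p)).symm
    rw [e1]
    have e2 := f.toMultilinearMap.map_sum (fun i (j : Fin (Module.finrank ℝ G)) =>
      b.repr (T i p) j • b j)
    change f (fun i => ∑ j, b.repr (T i p) j • b j) = _ at e2
    rw [e2]
    refine Finset.sum_congr rfl fun r _ => ?_
    have e3 := f.toMultilinearMap.map_smul_univ (fun i => b.repr (T i p) (r i)) (fun i => b (r i))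
    rw [← smul_eq_mul]
    exact e3
  have h2 : (fun p => f fun i => T i p) = fun p => ∑ r : Fin n → Fin (Module.finrank ℝ G),
      (∏ i, b.repr (T i p) (r i)) * f fun i => b (r i) := funext h1
  rw [h2]
  refine Pol.sum _ fun r _ => Pol.mul (Pol.prod _ fun i _ => ?_) (Pol.const _)
  exact Pol.lin ((LinearMap.toContinuousLinearMap (b.coord (r i))).comp (T i))

theorem Pol.det [FiniteDimensional ℝ G] (T : F →L[ℝ] (G →L[ℝ] G)) :
    (fun p => (T p).det) ∈ Pol F := by
  classical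
  set b := Module.finBasis ℝ G with hb
  have h1 : ∀ A : G →L[ℝ] G, A.det = ∑ σ : Equiv.Perm (Fin (Module.finrank ℝ G)),
      (((Equiv.Perm.sign σ : ℤˣ) : ℤ) : ℝ) * ∏ i, b.repr (A (b i)) (σ i) := by
    intro A
    rw [ContinuousLinearMap.det, ← LinearMap.det_toMatrix b, Matrix.det_apply']
    refine Finset.sum_congr rfl fun σ _ => ?_
    congr 1
    refine Finset.prod_congr rfl fun i _ => ?_
    rw [LinearMap.toMatrix_apply]
    rfl
  have h2 : (fun p => (T p).det) = fun p => ∑ σ : Equiv.Perm (Fin (Module.finrank ℝ G)),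
      (((Equiv.Perm.sign σ : ℤˣ) : ℤ) : ℝ) * ∏ i, b.repr (T p (b i)) (σ i) :=
    funext fun p => h1 _
  rw [h2]
  refine Pol.sum _ fun σ _ => Pol.mul (Pol.const _) (Pol.prod _ fun i _ => ?_)
  exact Pol.lin ((LinearMap.toContinuousLinearMap (b.coord (σ i))).comp
    ((ContinuousLinearMap.apply ℝ G (b i)).comp T))

end Pol

variable {W : Type} [NormedAddCommGroup W] [NormedSpace ℝ W]

/-- the four forms -/
abbrev V4 (W : Type) [NormedAddCommGroup W] [NormedSpace ℝ W] : Type :=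
  ContinuousMultilinearMap ℝ (fun _ : Fin 4 => W) ℝ

instance [FiniteDimensional ℝ W] : FiniteDimensional ℝ (V4 W) :=
  FiniteDimensional.of_injective (V₂ := MultilinearMap ℝ (fun _ : Fin 4 => W) ℝ)
    { toFun := fun f => f.toMultilinearMap
      map_add' := fun _ _ => rfl
      map_smul' := fun _ _ => rfl } ContinuousMultilinearMap.toMultilinearMap_injective

/-- the pairs of endomorphisms -/
abbrev MM (W : Type) [NormedAddCommGroup W] [NormedSpace ℝ W] : Type :=
  (W →L[ℝ] W) × (W →L[ℝ] W)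

/-- the four linear maps -/
def fam (p : MM W) : Fin 4 → (W →L[ℝ] W) := ![p.2, p.2, p.1, p.1]

/-- the action -/
def act (p : MM W) : V4 W →L[ℝ] V4 W :=
  ContinuousMultilinearMap.compContinuousLinearMapContinuousMultilinear ℝ
    (fun _ : Fin 4 => W) (fun _ : Fin 4 => W) ℝ (fam p)

theorem act_apply (p : MM W) (θ : V4 W) (v : Fin 4 → W) :
    act p θ v = θ fun i => fam p i (v i) := rfl

theorem fam_comp (p q : MM W) (i : Fin 4) :
    fam (p.1.comp q.1, p.2.comp q.2) i = (fam p i).comp (fam q i) := by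
  fin_cases i <;> rfl

theorem act_comp (p q : MM W) : (act p).comp (act q) = act (q.1.comp p.1, q.2.comp p.2) := by
  ext θ v
  rw [ContinuousLinearMap.comp_apply, act_apply, act_apply, act_apply]
  congr 1
  funext i
  rw [fam_comp]
  rfl

/-- the unit -/
def e1 : MM W := (ContinuousLinearMap.id ℝ W, ContinuousLinearMap.id ℝ W)

theorem act_e1 : act (e1 : MM W) = ContinuousLinearMap.id ℝ (V4 W) := by
  ext θ v
  rw [act_apply]
  congr 1
  funext i
  fin_cases i <;> rfl

theorem act_pol [FiniteDimensional ℝ W] (l : V4 W →L[ℝ] ℝ) (v : V4 W) :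
    (fun p : MM W => l (act p v)) ∈ Pol (MM W) := by
  set f : ContinuousMultilinearMap ℝ (fun _ : Fin 4 => W →L[ℝ] W) ℝ :=
    (l.comp (ContinuousLinearMap.apply ℝ (V4 W) v)).compContinuousMultilinearMap
      (ContinuousMultilinearMap.compContinuousLinearMapContinuousMultilinear ℝ
        (fun _ : Fin 4 => W) (fun _ : Fin 4 => W) ℝ) with hf
  have h := Pol.multi f (![ContinuousLinearMap.snd ℝ (W →L[ℝ] W) (W →L[ℝ] W),
    ContinuousLinearMap.snd ℝ (W →L[ℝ] W) (W →L[ℝ] W),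
    ContinuousLinearMap.fst ℝ (W →L[ℝ] W) (W →L[ℝ] W),
    ContinuousLinearMap.fst ℝ (W →L[ℝ] W) (W →L[ℝ] W)])
  have h2 : (fun p : MM W => l (act p v)) = fun p => f fun i =>
      (![ContinuousLinearMap.snd ℝ (W →L[ℝ] W) (W →L[ℝ] W),
        ContinuousLinearMap.snd ℝ (W →L[ℝ] W) (W →L[ℝ] W),
        ContinuousLinearMap.fst ℝ (W →L[ℝ] W) (W →L[ℝ] W),
        ContinuousLinearMap.fst ℝ (W →L[ℝ] W) (W →L[ℝ] W)] : Fin 4 → _) i p := by
    funext p
    have h3 : (fun i => (![ContinuousLinearMap.snd ℝ (W →L[ℝ] W) (W →L[ℝ] W),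
        ContinuousLinearMap.snd ℝ (W →L[ℝ] W) (W →L[ℝ] W),
        ContinuousLinearMap.fst ℝ (W →L[ℝ] W) (W →L[ℝ] W),
        ContinuousLinearMap.fst ℝ (W →L[ℝ] W) (W →L[ℝ] W)] : Fin 4 → _) i p) = fam p := by
      funext i
      fin_cases i <;> rfl
    rw [h3]
    rfl
  rw [h2]
  exact h

/-- the linear part of the action is smooth -/
theorem act_contDiff : ContDiff ℝ ∞ (act : MM W → V4 W →L[ℝ] V4 W) := by
  have h1 : ContDiff ℝ ∞ (fam : MM W → Fin 4 → (W →L[ℝ] W)) := by
    rw [contDiff_pi]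
    intro i
    fin_cases i
    · exact contDiff_snd
    · exact contDiff_snd
    · exact contDiff_fst
    · exact contDiff_fst
  exact (ContinuousMultilinearMap.contDiff _).comp h1

/-- the Lie algebra -/
def rho (W : Type) [NormedAddCommGroup W] [NormedSpace ℝ W] : MM W →L[ℝ] V4 W →L[ℝ] V4 W :=
  fderiv ℝ (act (W := W)) e1

theorem act_hasFDerivAt : HasFDerivAt (act : MM W → V4 W →L[ℝ] V4 W) (rho W) e1 :=
  (act_contDiff.differentiable (by simp) e1).hasFDerivAt

theorem rho_apply (θ : V4 W) (ξ : MM W) : fderiv ℝ (fun p => act p θ) e1 ξ = rho W ξ θ := by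
  have h1 : HasFDerivAt (fun p : MM W => act p θ)
      ((ContinuousLinearMap.apply ℝ (V4 W) θ).comp (rho W)) e1 :=
    HasFDerivAt.comp (g := fun T : V4 W →L[ℝ] V4 W => T θ) (e1 : MM W)
      (ContinuousLinearMap.apply ℝ (V4 W) θ).hasFDerivAt act_hasFDerivAt
  rw [h1.fderiv]
  rfl

/-- **the equations of the orbit** -/
theorem exists_eqs' [FiniteDimensional ℝ W] (θ₀ : V4 W) : ∃ (n : ℕ) (f : Fin n → V4 W → ℝ),
    (∀ i, f i ∈ Pol (V4 W)) ∧ (∀ i p, f i (act p θ₀) = 0) ∧
      ∀ v, (∀ i, fderiv ℝ (f i) θ₀ v = 0) → ∃ X : MM W, rho W X θ₀ = v := by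
  have key : ∀ p : MM W, p.1.det * p.2.det ≠ 0 → Function.Injective (act p) ∧
      ∃ q : MM W →L[ℝ] MM W, ∀ Y, act (p + Y) = (act p).comp (act (e1 + q Y)) := by
    intro p hp
    have hp1 : p.1.det ≠ 0 := left_ne_zero_of_mul hp
    have hp2 : p.2.det ≠ 0 := right_ne_zero_of_mul hp
    obtain ⟨a, ha⟩ : ∃ a : W ≃L[ℝ] W, (a : W →L[ℝ] W) = p.1 :=
      ⟨ContinuousLinearMap.toContinuousLinearEquivOfDetNeZero p.1 hp1, by ext; simp⟩
    obtain ⟨b, hb⟩ : ∃ b : W ≃L[ℝ] W, (b : W →L[ℝ] W) = p.2 :=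
      ⟨ContinuousLinearMap.toContinuousLinearEquivOfDetNeZero p.2 hp2, by ext; simp⟩
    have hinv : (act ((a.symm : W →L[ℝ] W), (b.symm : W →L[ℝ] W))).comp (act p) =
        ContinuousLinearMap.id ℝ (V4 W) := by
      rw [act_comp, ← act_e1]
      congr 1
      rw [← ha, ← hb]
      exact Prod.ext (by ext; simp [e1]) (by ext; simp [e1])
    refine ⟨fun θ θ' h => ?_, ?_⟩
    · have h1 := congrArg (act ((a.symm : W →L[ℝ] W), (b.symm : W →L[ℝ] W))) h
      have h2 := fun θ => DFunLike.congr_fun hinv θ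
      simp only [ContinuousLinearMap.comp_apply, ContinuousLinearMap.id_apply] at h2
      rwa [h2, h2] at h1
    · refine ⟨((ContinuousLinearMap.compL ℝ W W W).flip (a.symm : W →L[ℝ] W)).prodMap
        ((ContinuousLinearMap.compL ℝ W W W).flip (b.symm : W →L[ℝ] W)), fun Y => ?_⟩
      rw [act_comp]
      congr 1
      have q1 : ∀ (c : W ≃L[ℝ] W) (Z : W →L[ℝ] W), (c : W →L[ℝ] W) + Z =
          (ContinuousLinearMap.id ℝ W + Z.comp (c.symm : W →L[ℝ] W)).comp (c : W →L[ℝ] W) := by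
        intro c Z
        ext w
        simp
      have q2 := q1 a Y.1
      have q3 := q1 b Y.2
      rw [ha] at q2
      rw [hb] at q3
      exact Prod.ext q2 q3
  obtain ⟨n, f, h1, h2, h3⟩ := exists_eqs (act : MM W → V4 W →L[ℝ] V4 W) e1
    (fun p q => ⟨_, act_comp p q⟩) act_pol (fun p => p.1.det * p.2.det)
    (Pol.mul (Pol.det (ContinuousLinearMap.fst ℝ (W →L[ℝ] W) (W →L[ℝ] W)))
      (Pol.det (ContinuousLinearMap.snd ℝ (W →L[ℝ] W) (W →L[ℝ] W))))
    (by simp [e1, ContinuousLinearMap.det]) key θ₀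
  refine ⟨n, f, h1, h2, fun v hv => ?_⟩
  obtain ⟨X, hX⟩ := h3 v hv
  exact ⟨X, by rw [hX, rho_apply]⟩

end Vale.Agent.P207.N4.H391.Q
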