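import Vale.Agent.P207.N4.H391.Q.Act

/-!
# P207, b < 2a, step 8: the type lemma for the four forms
-/

set_option maxSynthPendingDepth 3

open Set Filter Topology Metric
open scoped ContDiff

noncomputable section

namespace Vale.Agent.P207.N4.H391.Q

open Vale.Agent.P207.H80.Orb Vale.Agent.P207.H376

variable {W : Type} [NormedAddCommGroup W] [NormedSpace ℝ W]

theorem act_curve (ξ : MM W) (θ : V4 W) :
    HasDerivAt (fun s : ℝ => act (e1 + s • ξ) θ) (rho W ξ θ) 0 := by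
  have h0 : HasDerivAt (fun s : ℝ => (e1 : MM W) + s • ξ) ξ 0 := by
    have h := ((hasDerivAt_id (0 : ℝ)).smul_const ξ).const_add (e1 : MM W)
    simpa using h
  have h1 : HasFDerivAt (fun p : MM W => act p θ)
      ((ContinuousLinearMap.apply ℝ (V4 W) θ).comp (rho W)) ((e1 : MM W) + (0 : ℝ) • ξ) := by
    rw [zero_smul, add_zero]
    exact HasFDerivAt.comp (g := fun T : V4 W →L[ℝ] V4 W => T θ) (e1 : MM W)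
      (ContinuousLinearMap.apply ℝ (V4 W) θ).hasFDerivAt act_hasFDerivAt
  exact h1.comp_hasDerivAt (0 : ℝ) h0

/-- the adjoint action -/
def Ad (a b : W ≃L[ℝ] W) (ξ : MM W) : MM W :=
  ((a.symm : W →L[ℝ] W).comp (ξ.1.comp (a : W →L[ℝ] W)),
    (b.symm : W →L[ℝ] W).comp (ξ.2.comp (b : W →L[ℝ] W)))

theorem act_Ad (a b : W ≃L[ℝ] W) (ξ : MM W) (s : ℝ) (θ : V4 W) :
    act ((a : W →L[ℝ] W), (b : W →L[ℝ] W)) (act (e1 + s • ξ) θ) =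
      act (e1 + s • Ad a b ξ) (act ((a : W →L[ℝ] W), (b : W →L[ℝ] W)) θ) := by
  have h1 := DFunLike.congr_fun (act_comp ((a : W →L[ℝ] W), (b : W →L[ℝ] W)) (e1 + s • ξ)) θ
  have h2 := DFunLike.congr_fun (act_comp (e1 + s • Ad a b ξ)
    ((a : W →L[ℝ] W), (b : W →L[ℝ] W))) θ
  rw [ContinuousLinearMap.comp_apply] at h1 h2
  rw [h1, h2]
  congr 2
  refine Prod.ext ?_ ?_
  · ext w
    simp [e1, Ad]
  · ext w
    simp [e1, Ad]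

theorem rho_Ad (a b : W ≃L[ℝ] W) (ξ : MM W) (θ : V4 W) :
    act ((a : W →L[ℝ] W), (b : W →L[ℝ] W)) (rho W ξ θ) =
      rho W (Ad a b ξ) (act ((a : W →L[ℝ] W), (b : W →L[ℝ] W)) θ) := by
  have h1 := (act ((a : W →L[ℝ] W), (b : W →L[ℝ] W))).hasFDerivAt.comp_hasDerivAt (0 : ℝ)
    (act_curve ξ θ)
  have h2 := act_curve (Ad a b ξ) (act ((a : W →L[ℝ] W), (b : W →L[ℝ] W)) θ)
  have h3 : (act ((a : W →L[ℝ] W), (b : W →L[ℝ] W))) ∘ (fun s : ℝ => act (e1 + s • ξ) θ) =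
      fun s : ℝ => act (e1 + s • Ad a b ξ) (act ((a : W →L[ℝ] W), (b : W →L[ℝ] W)) θ) :=
    funext fun s => act_Ad a b ξ s θ
  rw [h3] at h1
  exact h1.unique h2

theorem norm_Ad_le (a b : W ≃L[ℝ] W) (ξ : MM W) {κ : ℝ}
    (ha : ‖(a.symm : W →L[ℝ] W)‖ * ‖(a : W →L[ℝ] W)‖ ≤ κ)
    (hb : ‖(b.symm : W →L[ℝ] W)‖ * ‖(b : W →L[ℝ] W)‖ ≤ κ) : ‖Ad a b ξ‖ ≤ κ * ‖ξ‖ := by
  have h : ∀ (c : W ≃L[ℝ] W) (Z : W →L[ℝ] W), ‖(c.symm : W →L[ℝ] W)‖ * ‖(c : W →L[ℝ] W)‖ ≤ κ →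
      ‖Z‖ ≤ ‖ξ‖ → ‖(c.symm : W →L[ℝ] W).comp (Z.comp (c : W →L[ℝ] W))‖ ≤ κ * ‖ξ‖ := by
    intro c Z hc hZ
    have e1 := ContinuousLinearMap.opNorm_comp_le (c.symm : W →L[ℝ] W) (Z.comp (c : W →L[ℝ] W))
    have e2 := ContinuousLinearMap.opNorm_comp_le Z (c : W →L[ℝ] W)
    have e3 := norm_nonneg (c.symm : W →L[ℝ] W)
    have e4 := norm_nonneg (c : W →L[ℝ] W)
    have e5 := norm_nonneg ξ
    calc _ ≤ ‖(c.symm : W →L[ℝ] W)‖ * ‖Z.comp (c : W →L[ℝ] W)‖ := e1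
      _ ≤ ‖(c.symm : W →L[ℝ] W)‖ * (‖Z‖ * ‖(c : W →L[ℝ] W)‖) :=
        mul_le_mul_of_nonneg_left e2 e3
      _ ≤ ‖(c.symm : W →L[ℝ] W)‖ * (‖ξ‖ * ‖(c : W →L[ℝ] W)‖) := by gcongr
      _ = ‖(c.symm : W →L[ℝ] W)‖ * ‖(c : W →L[ℝ] W)‖ * ‖ξ‖ := by ring
      _ ≤ κ * ‖ξ‖ := mul_le_mul_of_nonneg_right hc e5
  exact max_le (h a ξ.1 ha (norm_fst_le ξ)) (h b ξ.2 hb (norm_snd_le ξ))

/-- **the type lemma for the four forms** -/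
theorem par_core [FiniteDimensional ℝ W] {θ₀ θ' : V4 W}
    (h : ∀ ε > 0, ∃ (a b : W ≃L[ℝ] W) (θ₁ θ₂ : V4 W),
      act ((a : W →L[ℝ] W), (b : W →L[ℝ] W)) θ₁ = θ₀ ∧
      act ((a : W →L[ℝ] W), (b : W →L[ℝ] W)) θ₂ = θ' ∧ ‖θ₁ - θ₀‖ ≤ ε ∧
      (∀ f ∈ Pol (V4 W), (∀ p, f (act p θ₀) = 0) → f θ₂ = 0) ∧ ‖θ₂ - θ₁‖ ≤ ε ∧
      ‖(a.symm : W →L[ℝ] W)‖ * ‖(a : W →L[ℝ] W)‖ * ‖θ₂ - θ₁‖ ≤ ε ∧
      ‖(b.symm : W →L[ℝ] W)‖ * ‖(b : W →L[ℝ] W)‖ * ‖θ₂ - θ₁‖ ≤ ε ∧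
      ‖act ((a : W →L[ℝ] W), (b : W →L[ℝ] W))‖ * ‖θ₂ - θ₁‖ ^ 2 ≤ ε) : θ' = θ₀ := by
  obtain ⟨n, f, hf1, hf2, hf3⟩ := exists_eqs' θ₀
  obtain ⟨C, δ, hC, hδ, hty⟩ := ty_local (rho W) f
    (fun i => by exact_mod_cast contDiff_infty.1 (Pol.contDiff (hf1 i)) 2) θ₀ hf3
  rw [← sub_eq_zero, ← norm_le_zero_iff]
  refine le_of_forall_pos_le_add fun η hη => ?_
  rw [zero_add]
  set K := C + ‖rho W‖ * C * ‖θ₀‖ + 1 with hK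
  have hK0 : 0 < K := by positivity
  obtain ⟨a, b, θ₁, θ₂, h1, h2, h3, h4, h5, h6, h7, h8⟩ := h (min δ (η / K))
    (lt_min hδ (div_pos hη hK0))
  set T := act ((a : W →L[ℝ] W), (b : W →L[ℝ] W)) with hT
  have hθ₁ : θ₁ = act ((a.symm : W →L[ℝ] W), (b.symm : W →L[ℝ] W)) θ₀ := by
    have e := DFunLike.congr_fun (act_comp ((a.symm : W →L[ℝ] W), (b.symm : W →L[ℝ] W))
      ((a : W →L[ℝ] W), (b : W →L[ℝ] W))) θ₁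
    rw [ContinuousLinearMap.comp_apply, ← hT, h1] at e
    rw [e]
    have e2 : (((a : W →L[ℝ] W).comp (a.symm : W →L[ℝ] W), (b : W →L[ℝ] W).comp
        (b.symm : W →L[ℝ] W)) : MM W) = Q.e1 := Prod.ext (by ext; simp [Q.e1]) (by ext; simp [Q.e1])
    change θ₁ = act (((a : W →L[ℝ] W).comp (a.symm : W →L[ℝ] W), (b : W →L[ℝ] W).comp
        (b.symm : W →L[ℝ] W)) : MM W) θ₁
    rw [e2, act_e1]
    rfl
  have hv : ∀ (i : Fin n) (p : MM W), f i (act p θ₁) = 0 := by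
    intro i p
    have e := DFunLike.congr_fun (act_comp p ((a.symm : W →L[ℝ] W), (b.symm : W →L[ℝ] W))) θ₀
    rw [ContinuousLinearMap.comp_apply, ← hθ₁] at e
    rw [e]
    exact hf2 i _
  have hv0 : ∀ i, f i θ₁ = 0 := by
    intro i
    have e := hv i Q.e1
    rwa [act_e1] at e
  obtain ⟨ξ, hξ1, hξ2⟩ := hty θ₁ (h3.trans (min_le_left _ _)) hv0
    (fun i ξ => tangent_of_orbit ((Pol.contDiff (hf1 i)).differentiable (by simp))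
      (c := fun s : ℝ => act (Q.e1 + s • ξ) θ₁)
      (by rw [zero_smul, add_zero, act_e1]; rfl) (act_curve ξ θ₁) fun s => hv i _)
    (θ₂ - θ₁) (h5.trans (min_le_left _ _)) (fun i => by
      rw [add_sub_cancel]
      exact h4 _ (hf1 i) (hf2 i))
  set w := θ₂ - θ₁ with hw
  have e1 : θ' - θ₀ = T (w - rho W ξ θ₁) + rho W (Ad a b ξ) θ₀ := by
    rw [map_sub, hT, rho_Ad, ← hT, h1, hw, map_sub, h1, h2]
    abel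
  have e2 : ‖T (w - rho W ξ θ₁)‖ ≤ C * (min δ (η / K)) := by
    calc ‖T (w - rho W ξ θ₁)‖ ≤ ‖T‖ * ‖w - rho W ξ θ₁‖ := T.le_opNorm _
      _ ≤ ‖T‖ * (C * ‖w‖ ^ 2) := mul_le_mul_of_nonneg_left hξ2 (norm_nonneg _)
      _ = C * (‖T‖ * ‖w‖ ^ 2) := by ring
      _ ≤ C * (min δ (η / K)) := mul_le_mul_of_nonneg_left h8 hC.le
  have e3 : ‖Ad a b ξ‖ ≤ C * (min δ (η / K)) := by
    set κ := max (‖(a.symm : W →L[ℝ] W)‖ * ‖(a : W →L[ℝ] W)‖)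
      (‖(b.symm : W →L[ℝ] W)‖ * ‖(b : W →L[ℝ] W)‖) with hκ
    have g1 := norm_Ad_le a b ξ (κ := κ) (le_max_left _ _) (le_max_right _ _)
    have hκ0 : 0 ≤ κ := (by positivity : 0 ≤ ‖(a.symm : W →L[ℝ] W)‖ * ‖(a : W →L[ℝ] W)‖).trans
      (le_max_left _ _)
    have g2 : κ * ‖w‖ ≤ min δ (η / K) := by
      rcases max_choice (‖(a.symm : W →L[ℝ] W)‖ * ‖(a : W →L[ℝ] W)‖)
        (‖(b.symm : W →L[ℝ] W)‖ * ‖(b : W →L[ℝ] W)‖) with h | h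
      · rw [hκ, h]; exact h6
      · rw [hκ, h]; exact h7
    calc ‖Ad a b ξ‖ ≤ κ * ‖ξ‖ := g1
      _ ≤ κ * (C * ‖w‖) := mul_le_mul_of_nonneg_left hξ1 hκ0
      _ = C * (κ * ‖w‖) := by ring
      _ ≤ C * (min δ (η / K)) := mul_le_mul_of_nonneg_left g2 hC.le
  have e4 : ‖rho W (Ad a b ξ) θ₀‖ ≤ ‖rho W‖ * (C * (min δ (η / K))) * ‖θ₀‖ := by
    calc ‖rho W (Ad a b ξ) θ₀‖ ≤ ‖rho W (Ad a b ξ)‖ * ‖θ₀‖ := (rho W (Ad a b ξ)).le_opNorm _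
      _ ≤ (‖rho W‖ * ‖Ad a b ξ‖) * ‖θ₀‖ :=
        mul_le_mul_of_nonneg_right ((rho W).le_opNorm _) (norm_nonneg _)
      _ ≤ ‖rho W‖ * (C * (min δ (η / K))) * ‖θ₀‖ := by gcongr
  have e5 : ‖θ' - θ₀‖ ≤ (C + ‖rho W‖ * C * ‖θ₀‖) * min δ (η / K) := by
    rw [e1]
    refine (norm_add_le _ _).trans ?_
    nlinarith
  have e6 : (C + ‖rho W‖ * C * ‖θ₀‖) * min δ (η / K) ≤ K * (η / K) := by
    have g1 : 0 ≤ C + ‖rho W‖ * C * ‖θ₀‖ := by positivity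
    exact mul_le_mul (by rw [hK]; linarith) (min_le_right _ _)
      (le_min hδ.le (div_pos hη hK0).le) hK0.le
  rw [mul_div_cancel₀ _ hK0.ne'] at e6
  exact e5.trans e6

end Vale.Agent.P207.N4.H391.Q
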