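import Vale.Agent.P207.N4.H391.Q.Core

/-!
# P207, b < 2a, step 8: an invariant tensor which is Lipschitz along stable leaves is parallel along
the stable leaf of a frame with dense forward orbit
-/

set_option maxSynthPendingDepth 3

open Set Filter Topology Metric
open scoped ContDiff

noncomputable section

namespace Vale.Agent.P207.N4.H391.Q

open Vale.Agent.P207.H80.Orb

variable {W : Type} [NormedAddCommGroup W] [NormedSpace ℝ W]

theorem norm_act_le (p : MM W) : ‖act p‖ ≤ ‖p.2‖ * ‖p.2‖ * (‖p.1‖ * ‖p.1‖) := by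
  have h1 : ‖act p‖ ≤ ∏ i, ‖fam p i‖ :=
    ContinuousMultilinearMap.norm_compContinuousLinearMapL_le (𝕜 := ℝ) ℝ (fam p)
  refine h1.trans (le_of_eq ?_)
  rw [Fin.prod_univ_four]
  change ‖p.2‖ * ‖p.2‖ * ‖p.1‖ * ‖p.1‖ = _
  ring

theorem par_at [FiniteDimensional ℝ W] {X ι : Type} (θ : X → V4 W) (x0 : X) (τ : ι → ℝ)
    (c : ι → X) (P P' : ι → W ≃L[ℝ] W)
    (hfl : ∀ i, 0 ≤ τ i → act ((P i : W →L[ℝ] W), (P' i : W →L[ℝ] W)) (θ (c i)) = θ x0)
    (hret : ∀ y, ∀ ε > 0, ∀ T : ℝ, ∃ i, T ≤ τ i ∧ ‖θ (c i) - θ y‖ < ε) {a b C : ℝ}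
    (ha : 0 < a) (hab : b < 2 * a)
    (r1 : ∀ i, 0 ≤ τ i → ‖(P i : W →L[ℝ] W)‖ ≤ Real.exp (b * τ i))
    (r2 : ∀ i, 0 ≤ τ i → ‖((P i).symm : W →L[ℝ] W)‖ ≤ Real.exp (-a * τ i))
    (r3 : ∀ i, 0 ≤ τ i → ‖(P' i : W →L[ℝ] W)‖ ≤ Real.exp (-a * τ i))
    (r4 : ∀ i, 0 ≤ τ i → ‖((P' i).symm : W →L[ℝ] W)‖ ≤ Real.exp (b * τ i))
    (q : ι → MM W) (y : ι → X) (θ' : V4 W)
    (htr : ∀ i, 0 ≤ τ i →
      act ((P i : W →L[ℝ] W), (P' i : W →L[ℝ] W)) (act (q i) (θ (y i))) = θ')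
    (hC0 : 0 ≤ C)
    (hlip : ∀ i, 0 ≤ τ i → ‖act (q i) (θ (y i)) - θ (c i)‖ ≤ C * Real.exp (-a * τ i)) :
    θ' = θ x0 := by
  -- the equations vanish on every `act p (θ w)`
  have hvan : ∀ f ∈ Pol (V4 W), (∀ p, f (act p (θ x0)) = 0) → ∀ (p : MM W) (w : X),
      f (act p (θ w)) = 0 := by
    intro f hf hz p w
    have hct : ∀ i, 0 ≤ τ i → f (act p (θ (c i))) = 0 := by
      intro i ht
      have e0 := hfl i ht
      set A : W →L[ℝ] W := ((P i).symm : W →L[ℝ] W)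
      set A' : W →L[ℝ] W := ((P' i).symm : W →L[ℝ] W)
      have e1 : θ (c i) = act (A, A') (θ x0) := by
        have e := DFunLike.congr_fun (act_comp (A, A')
          ((P i : W →L[ℝ] W), (P' i : W →L[ℝ] W))) (θ (c i))
        rw [ContinuousLinearMap.comp_apply, e0] at e
        rw [e]
        have e2 : (((P i : W →L[ℝ] W).comp A, (P' i : W →L[ℝ] W).comp A') : MM W) = Q.e1 :=
          Prod.ext (by ext; simp [Q.e1, A]) (by ext; simp [Q.e1, A'])
        change θ (c i) = act (((P i : W →L[ℝ] W).comp A, (P' i : W →L[ℝ] W).comp A') : MM W)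
          (θ (c i))
        rw [e2, act_e1]
        rfl
      have e := DFunLike.congr_fun (act_comp p (A, A')) (θ x0)
      rw [ContinuousLinearMap.comp_apply, ← e1] at e
      rw [e]
      exact hz _
    -- the limit
    have hcont : Continuous fun v : V4 W => f (act p v) :=
      (Pol.contDiff hf).continuous.comp (act p).continuous
    by_contra hne
    obtain ⟨δ, hδ, hb⟩ := Metric.continuousAt_iff.1 (hcont.continuousAt (x := θ w))
      |f (act p (θ w))| (abs_pos.2 hne)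
    obtain ⟨i, ht, ht2⟩ := hret w δ hδ 0
    have e := hb (x := θ (c i)) (by rw [dist_eq_norm]; exact ht2)
    rw [hct i ht, Real.dist_eq, zero_sub, abs_neg] at e
    exact lt_irrefl _ e
  refine par_core fun ε hε => ?_
  -- the time
  have hlim : ∀ (K s : ℝ), 0 < s → Tendsto (fun t : ℝ => K * Real.exp (-(s * t))) atTop (𝓝 0) := by
    intro K s hs
    have h1 : Tendsto (fun t : ℝ => Real.exp (-(s * t))) atTop (𝓝 0) :=
      Real.tendsto_exp_neg_atTop_nhds_zero.comp (tendsto_id.const_mul_atTop hs)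
    simpa using h1.const_mul K
  have e1 : ∀ᶠ t : ℝ in atTop, C * Real.exp (-(a * t)) < ε :=
    (hlim C a ha).eventually (gt_mem_nhds hε)
  have e2 : ∀ᶠ t : ℝ in atTop, C * Real.exp (-((2 * a - b) * t)) < ε :=
    (hlim C (2 * a - b) (by linarith)).eventually (gt_mem_nhds hε)
  have e3 : ∀ᶠ t : ℝ in atTop, C ^ 2 * Real.exp (-((4 * a - 2 * b) * t)) < ε :=
    (hlim (C ^ 2) (4 * a - 2 * b) (by linarith)).eventually (gt_mem_nhds hε)
  obtain ⟨T, hT⟩ := eventually_atTop.1 (e1.and (e2.and (e3.and (eventually_ge_atTop 0))))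
  obtain ⟨i, ht, hr⟩ := hret x0 ε hε T
  obtain ⟨t1, t2, t3, t0⟩ := hT (τ i) ht
  have hl := hlip i t0
  have n0 := norm_nonneg (act (q i) (θ (y i)) - θ (c i))
  refine ⟨P i, P' i, θ (c i), act (q i) (θ (y i)), hfl i t0, htr i t0, hr.le,
    fun f hf hz => hvan f hf hz _ _, ?_, ?_, ?_, ?_⟩
  · refine hl.trans ?_
    rw [show -a * τ i = -(a * τ i) by ring]
    exact t1.le
  · have h1 : ‖((P i).symm : W →L[ℝ] W)‖ * ‖(P i : W →L[ℝ] W)‖ ≤
        Real.exp (-a * τ i) * Real.exp (b * τ i) :=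
      mul_le_mul (r2 i t0) (r1 i t0) (norm_nonneg _) (Real.exp_pos _).le
    calc _ ≤ Real.exp (-a * τ i) * Real.exp (b * τ i) * (C * Real.exp (-a * τ i)) :=
          mul_le_mul h1 hl n0 (by positivity)
      _ = C * Real.exp (-((2 * a - b) * τ i)) := by
          rw [show -((2 * a - b) * τ i) = -a * τ i + b * τ i + -a * τ i by ring, Real.exp_add,
            Real.exp_add]
          ring
      _ ≤ ε := t2.le
  · have h1 : ‖((P' i).symm : W →L[ℝ] W)‖ * ‖(P' i : W →L[ℝ] W)‖ ≤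
        Real.exp (b * τ i) * Real.exp (-a * τ i) :=
      mul_le_mul (r4 i t0) (r3 i t0) (norm_nonneg _) (Real.exp_pos _).le
    calc _ ≤ Real.exp (b * τ i) * Real.exp (-a * τ i) * (C * Real.exp (-a * τ i)) :=
          mul_le_mul h1 hl n0 (by positivity)
      _ = C * Real.exp (-((2 * a - b) * τ i)) := by
          rw [show -((2 * a - b) * τ i) = -a * τ i + b * τ i + -a * τ i by ring, Real.exp_add,
            Real.exp_add]
          ring
      _ ≤ ε := t2.le
  · have h1 : ‖act ((P i : W →L[ℝ] W), (P' i : W →L[ℝ] W))‖ ≤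
        Real.exp (-a * τ i) * Real.exp (-a * τ i) * (Real.exp (b * τ i) * Real.exp (b * τ i)) := by
      refine (norm_act_le _).trans ?_
      have g1 := r3 i t0
      have g2 := r1 i t0
      have g3 := norm_nonneg (P' i : W →L[ℝ] W)
      have g4 := norm_nonneg (P i : W →L[ℝ] W)
      exact mul_le_mul (mul_le_mul g1 g1 g3 (Real.exp_pos _).le)
        (mul_le_mul g2 g2 g4 (Real.exp_pos _).le) (by positivity) (by positivity)
    have h2 : ‖act (q i) (θ (y i)) - θ (c i)‖ ^ 2 ≤ (C * Real.exp (-a * τ i)) ^ 2 :=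
      pow_le_pow_left₀ n0 hl 2
    calc _ ≤ Real.exp (-a * τ i) * Real.exp (-a * τ i) * (Real.exp (b * τ i) *
          Real.exp (b * τ i)) * (C * Real.exp (-a * τ i)) ^ 2 :=
          mul_le_mul h1 h2 (by positivity) (by positivity)
      _ = C ^ 2 * Real.exp (-((4 * a - 2 * b) * τ i)) := by
          rw [show -((4 * a - 2 * b) * τ i) = -a * τ i + -a * τ i + (b * τ i + b * τ i) +
            (-a * τ i + -a * τ i) by ring, Real.exp_add, Real.exp_add, Real.exp_add, Real.exp_add]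
          ring
      _ ≤ ε := t3.le

end Vale.Agent.P207.N4.H391.Q
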